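import Vale.Agent.Lib.P317.Paving

/-!
Common bases of an arbitrary matroid and a paving or dual-paving matroid of the same rank:
the criterion for the existence of a common base in the paving case, and the exchange step
in the dual-paving case.
-/

namespace Vale.Agent.Lib.P317

open Set

variable {α : Type*}

/-- Paving case: a common base exists exactly when some base of `M₂` consists of nonloops
of `M₁`. -/
theorem common_iff_good (M₁ M₂ : Matroid α) (r : ℕ) (hE : M₁.E = M₂.E) (hfin : M₁.E.Finite)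
    (hr₁ : ∀ B, M₁.IsBase B → B.ncard = r) (hr₂ : ∀ B, M₂.IsBase B → B.ncard = r)
    (hpav : ∀ I, I ⊆ M₂.E → I.ncard < r → M₂.Indep I) :
    (∃ B, M₁.IsBase B ∧ M₂.IsBase B) ↔ (∃ B₂, M₂.IsBase B₂ ∧ ∀ e ∈ B₂, M₁.Indep {e}) := by
  constructor
  · rintro ⟨B₀, h1, h2⟩
    exact ⟨B₀, h2, fun e he => h1.indep.subset (Set.singleton_subset_iff.mpr he)⟩
  · intro hgood
    obtain ⟨B, hB⟩ := M₁.exists_isBase
    by_cases hB2 : M₂.IsBase B
    · exact ⟨B, hB, hB2⟩
    · obtain ⟨x, _, y, _, h1, h2⟩ := exchange_step M₁ M₂ r hE hfin hr₁ hr₂ hpav hgood hB hB2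
      exact ⟨_, h1, h2⟩

/-- The complement of a single exchange is a single exchange of the complement. -/
theorem compl_exchange (E B : Set α) (hBE : B ⊆ E) {x y : α} (hy : y ∈ E \ B) (hx : x ∈ B) :
    E \ insert x ((E \ B) \ {y}) = insert y (B \ {x}) := by
  ext z
  simp only [Set.mem_sdiff, Set.mem_insert_iff, Set.mem_singleton_iff, not_or, not_and, not_not]
  constructor
  · rintro ⟨hzE, hzx, hz⟩
    by_cases hzy : z = y
    · exact Or.inl hzy
    · refine Or.inr ⟨?_, hzx⟩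
      by_contra hzB
      exact hzy (hz ⟨hzE, hzB⟩)
  · rintro (rfl | ⟨hzB, hzx⟩)
    · refine ⟨hy.1, ?_, fun _ => rfl⟩
      rintro rfl
      exact hy.2 hx
    · exact ⟨hBE hzB, hzx, fun h => absurd hzB h.2⟩

/-- Dual-paving case: a base of `M₁` that is not a base of `M₂` is one exchange away from a
common base, as soon as a common base exists. -/
theorem coexchange_step (M₁ M₂ : Matroid α) (r : ℕ) (hE : M₁.E = M₂.E) (hfin : M₁.E.Finite)
    (hr₁ : ∀ B, M₁.IsBase B → B.ncard = r) (hr₂ : ∀ B, M₂.IsBase B → B.ncard = r)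
    (hpav : ∀ I, I ⊆ M₂.E → I.ncard < M₂.E.ncard - r → M₂✶.Indep I)
    (hne : ∃ B, M₁.IsBase B ∧ M₂.IsBase B)
    {B : Set α} (hB : M₁.IsBase B) (hB2 : ¬ M₂.IsBase B) :
    ∃ x ∈ B, ∃ y ∈ M₁.E \ B,
      M₁.IsBase (insert y (B \ {x})) ∧ M₂.IsBase (insert y (B \ {x})) := by
  have hfin2 : M₂.E.Finite := hE ▸ hfin
  obtain ⟨B₀, hB₀1, hB₀2⟩ := hne
  have hBE : B ⊆ M₁.E := hB.subset_ground
  have hgood : ∃ B₂, M₂✶.IsBase B₂ ∧ ∀ e ∈ B₂, M₁✶.Indep {e} := by
    refine ⟨M₁.E \ B₀, ?_, fun e he => ?_⟩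
    · have := hB₀2.compl_isBase_dual
      rwa [← hE] at this
    · exact hB₀1.compl_isBase_dual.indep.subset (Set.singleton_subset_iff.mpr he)
  have hB' : M₁✶.IsBase (M₁.E \ B) := hB.compl_isBase_dual
  have hB2' : ¬ M₂✶.IsBase (M₁.E \ B) := by
    intro h
    have h' := h.compl_isBase_of_dual
    rw [← hE, Set.sdiff_sdiff_cancel_left hBE] at h'
    exact hB2 h'
  obtain ⟨y, hy, x, hx, h1, h2⟩ := exchange_step M₁✶ M₂✶ (M₁.E.ncard - r) hE hfin
    (dual_base_ncard M₁ hfin r hr₁)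
    (fun B hB => by rw [hE]; exact dual_base_ncard M₂ hfin2 r hr₂ B hB)
    (fun I hI hc => hpav I hI (by rw [← hE]; exact hc)) hgood hB' hB2'
  have hxB : x ∈ B := by
    have hxE : x ∈ M₁.E := hx.1
    by_contra hxB
    exact hx.2 ⟨hxE, hxB⟩
  refine ⟨x, hxB, y, hy, ?_, ?_⟩
  · have := h1.compl_isBase_of_dual
    rwa [compl_exchange M₁.E B hBE hy hxB] at this
  · have := h2.compl_isBase_of_dual
    rwa [← hE, compl_exchange M₁.E B hBE hy hxB] at this

end Vale.Agent.Lib.P317
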