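import Mathlib

/-!
Common bases of a loopless matroid and a paving matroid of the same rank:
every base of the first matroid is one exchange away from a common base.
-/

namespace Vale.Agent.Lib.P317

open Set

variable {α : Type*}

/-- An independent set whose size is the common size of the bases is a base. -/
theorem isBase_of_indep_of_ncard (M : Matroid α) (hfin : M.E.Finite) (r : ℕ)
    (hr : ∀ B, M.IsBase B → B.ncard = r) {I : Set α} (hI : M.Indep I) (hc : I.ncard = r) :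
    M.IsBase I := by
  obtain ⟨B, hB, hIB⟩ := hI.exists_isBase_superset
  have hBfin : B.Finite := hfin.subset hB.subset_ground
  have h : I = B := Set.eq_of_subset_of_ncard_le hIB (by rw [hr B hB, hc]) hBfin
  rw [h]
  exact hB

/-- The exchange step: a base of `M₁` that is not a base of the paving matroid `M₂`
is one exchange away from a common base, as soon as some base of `M₂` consists of
nonloops of `M₁`. -/
theorem exchange_step (M₁ M₂ : Matroid α) (r : ℕ) (hE : M₁.E = M₂.E) (hfin : M₁.E.Finite)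
    (hr₁ : ∀ B, M₁.IsBase B → B.ncard = r) (hr₂ : ∀ B, M₂.IsBase B → B.ncard = r)
    (hpav : ∀ I, I ⊆ M₂.E → I.ncard < r → M₂.Indep I)
    (hgood : ∃ B₂, M₂.IsBase B₂ ∧ ∀ e ∈ B₂, M₁.Indep {e})
    {B : Set α} (hB : M₁.IsBase B) (hB2 : ¬ M₂.IsBase B) :
    ∃ x ∈ B, ∃ y ∈ M₁.E \ B,
      M₁.IsBase (insert y (B \ {x})) ∧ M₂.IsBase (insert y (B \ {x})) := by
  have hfin2 : M₂.E.Finite := hE ▸ hfin
  have hBE : B ⊆ M₁.E := hB.subset_ground
  have hBfin : B.Finite := hfin.subset hBE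
  have hBr : B.ncard = r := hr₁ B hB
  have hBdep : ¬ M₂.Indep B := fun h => hB2 (isBase_of_indep_of_ncard M₂ hfin2 r hr₂ h hBr)
  have hBne : B.Nonempty := by
    rw [Set.nonempty_iff_ne_empty]
    intro h
    rw [h] at hBdep
    exact hBdep M₂.empty_indep
  have hsub : ∀ x ∈ B, M₂.Indep (B \ {x}) ∧ ¬ M₂.IsBase (B \ {x}) := by
    intro x hx
    have hc : (B \ {x}).ncard = r - 1 := by
      rw [Set.ncard_sdiff_singleton_of_mem hx, hBr]
    have hrpos : 0 < r := by
      rw [← hBr]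
      exact (Set.ncard_pos hBfin).mpr hBne
    refine ⟨hpav _ (fun z hz => hE ▸ hBE hz.1) (by omega), fun hbase => ?_⟩
    have := hr₂ _ hbase
    omega
  obtain ⟨x₀, hx₀⟩ := hBne
  obtain ⟨B₂, hB₂, hB₂loop⟩ := hgood
  obtain ⟨y, hy, hyI⟩ := (hsub x₀ hx₀).1.exists_insert_of_not_isBase (hsub x₀ hx₀).2 hB₂
  have hyB : y ∉ B := by
    intro hyB
    have hyx : y = x₀ := by
      by_contra hne
      exact hy.2 ⟨hyB, hne⟩
    rw [hyx, Set.insert_sdiff_singleton, Set.insert_eq_of_mem hx₀] at hyI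
    exact hBdep hyI
  have hyE2 : y ∈ M₂.E := hB₂.subset_ground hy.1
  have hyE : y ∈ M₁.E := hE ▸ hyE2
  have hcard : ∀ x ∈ B, (insert y (B \ {x})).ncard = r := by
    intro x hx
    rw [Set.ncard_insert_of_notMem (fun h => hyB h.1) (hBfin.subset Set.sdiff_subset),
      Set.ncard_sdiff_singleton_of_mem hx, hBr]
    have hrpos : 0 < r := by
      rw [← hBr]
      exact (Set.ncard_pos hBfin).mpr ⟨x, hx⟩
    omega
  have hB₂' : M₂.IsBase (insert y (B \ {x₀})) :=
    isBase_of_indep_of_ncard M₂ hfin2 r hr₂ hyI (hcard x₀ hx₀)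
  -- the side of `M₁`
  obtain ⟨B', hB', hyB', hB'sub⟩ := (hB₂loop y hy.1).exists_isBase_subset_union_isBase hB
  have hyB'mem : y ∈ B' := hyB' (Set.mem_singleton y)
  have hex : ∃ x, x ∈ B ∧ x ∉ B' := by
    by_contra hcon
    push Not at hcon
    have hBB' : B = B' := hB.eq_of_subset_isBase hB' hcon
    exact hyB (hBB' ▸ hyB'mem)
  obtain ⟨x, hxB, hxB'⟩ := hex
  obtain ⟨y', hy', hbase⟩ := hB.exchange hB' ⟨hxB, hxB'⟩
  have hy'y : y' = y := by
    rcases hB'sub hy'.1 with h | h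
    · exact h
    · exact absurd h hy'.2
  rw [hy'y] at hbase
  refine ⟨x, hxB, y, ⟨hyE, hyB⟩, hbase, ?_⟩
  -- the side of `M₂`
  obtain ⟨e, he, heI⟩ := (hsub x hxB).1.exists_insert_of_not_isBase (hsub x hxB).2 hB₂'
  have hey : e = y := by
    rcases he.1 with h | h
    · exact h
    · exfalso
      have hex : e = x := by
        by_contra hne
        exact he.2 ⟨h.1, hne⟩
      rw [hex, Set.insert_sdiff_singleton, Set.insert_eq_of_mem hxB] at heI
      exact hBdep heI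
  rw [hey] at heI
  exact isBase_of_indep_of_ncard M₂ hfin2 r hr₂ heI (hcard x hxB)

/-- If `M₂` is paving and some base of `M₂` consists of nonloops of `M₁`, both matroids of rank
`r` on the same finite ground set with `n` elements, then the bases of `M₁` are at most
`1 + r (n - r)` times as many as the common bases. -/
theorem paving_bound (M₁ M₂ : Matroid α) (r : ℕ) (hE : M₁.E = M₂.E) (hfin : M₁.E.Finite)
    (hr₁ : ∀ B, M₁.IsBase B → B.ncard = r) (hr₂ : ∀ B, M₂.IsBase B → B.ncard = r)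
    (hpav : ∀ I, I ⊆ M₂.E → I.ncard < r → M₂.Indep I)
    (hgood : ∃ B₂, M₂.IsBase B₂ ∧ ∀ e ∈ B₂, M₁.Indep {e}) :
    {B | M₁.IsBase B}.ncard
      ≤ (1 + r * (M₁.E.ncard - r)) * {B | M₁.IsBase B ∧ M₂.IsBase B}.ncard := by
  classical
  have hPfin : {B : Set α | B ⊆ M₁.E}.Finite := hfin.finite_subsets
  have hDfin : {B | M₁.IsBase B ∧ ¬ M₂.IsBase B}.Finite :=
    hPfin.subset (fun B hB => hB.1.subset_ground)
  have hCfin : {B | M₁.IsBase B ∧ M₂.IsBase B}.Finite :=
    hPfin.subset (fun B hB => hB.1.subset_ground)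
  have hsplit : {B | M₁.IsBase B}
      = {B | M₁.IsBase B ∧ M₂.IsBase B} ∪ {B | M₁.IsBase B ∧ ¬ M₂.IsBase B} := by
    ext B
    simp only [Set.mem_ofPred_eq, Set.mem_union]
    tauto
  have hdisj : Disjoint {B | M₁.IsBase B ∧ M₂.IsBase B} {B | M₁.IsBase B ∧ ¬ M₂.IsBase B} := by
    rw [Set.disjoint_left]
    intro B hB hB'
    exact hB'.2 hB.2
  have h1 : {B | M₁.IsBase B}.ncard = {B | M₁.IsBase B ∧ M₂.IsBase B}.ncard
      + {B | M₁.IsBase B ∧ ¬ M₂.IsBase B}.ncard := by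
    rw [hsplit, Set.ncard_union_eq hdisj hCfin hDfin]
  suffices h2 : {B | M₁.IsBase B ∧ ¬ M₂.IsBase B}.ncard
      ≤ {B | M₁.IsBase B ∧ M₂.IsBase B}.ncard * (r * (M₁.E.ncard - r)) by
    rw [h1]
    calc {B | M₁.IsBase B ∧ M₂.IsBase B}.ncard + {B | M₁.IsBase B ∧ ¬ M₂.IsBase B}.ncard
        ≤ {B | M₁.IsBase B ∧ M₂.IsBase B}.ncard
          + {B | M₁.IsBase B ∧ M₂.IsBase B}.ncard * (r * (M₁.E.ncard - r)) :=
          Nat.add_le_add_left h2 _
      _ = (1 + r * (M₁.E.ncard - r)) * {B | M₁.IsBase B ∧ M₂.IsBase B}.ncard := by ring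
  -- the exchange map
  have : Fintype ↥{B | M₁.IsBase B ∧ ¬ M₂.IsBase B} := hDfin.fintype
  choose x hx y hy hxy using fun (B : ↥{B | M₁.IsBase B ∧ ¬ M₂.IsBase B}) =>
    exchange_step M₁ M₂ r hE hfin hr₁ hr₂ hpav hgood B.2.1 B.2.2
  let Ef : Finset α := hfin.toFinset
  let Cf : Finset (Set α) := hCfin.toFinset
  let T : Finset (Set α × α × α) := Cf.biUnion (fun B' =>
    ({B'} : Finset (Set α)) ×ˢ ((Ef.filter (fun a => a ∈ B')) ×ˢ (Ef.filter (fun a => a ∉ B'))))
  let g : ↥{B | M₁.IsBase B ∧ ¬ M₂.IsBase B} → Set α × α × α :=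
    fun B => (insert (y B) ((B : Set α) \ {x B}), y B, x B)
  have hgT : ∀ B ∈ (Finset.univ : Finset ↥{B | M₁.IsBase B ∧ ¬ M₂.IsBase B}), g B ∈ T := by
    intro B _
    have hBE : (B : Set α) ⊆ M₁.E := B.2.1.subset_ground
    simp only [T, g, Finset.mem_biUnion, Finset.mem_product, Finset.mem_singleton,
      Finset.mem_filter]
    refine ⟨insert (y B) ((B : Set α) \ {x B}), ?_, rfl, ?_, ?_⟩
    · simp only [Cf, Set.Finite.mem_toFinset, Set.mem_ofPred_eq]
      exact hxy B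
    · exact ⟨by simp only [Ef, Set.Finite.mem_toFinset]; exact (hy B).1, Set.mem_insert _ _⟩
    · refine ⟨by simp only [Ef, Set.Finite.mem_toFinset]; exact hBE (hx B), ?_⟩
      intro h
      rcases h with h | h
      · exact (hy B).2 (h ▸ hx B)
      · exact h.2 rfl
  have hginj : Set.InjOn g (Finset.univ : Finset ↥{B | M₁.IsBase B ∧ ¬ M₂.IsBase B}) := by
    intro B _ B' _ hBB'
    simp only [g, Prod.mk.injEq] at hBB'
    obtain ⟨h1, h2, h3⟩ := hBB'
    have hrec : ∀ B : ↥{B | M₁.IsBase B ∧ ¬ M₂.IsBase B},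
        (B : Set α) = insert (x B) ((insert (y B) ((B : Set α) \ {x B})) \ {y B}) := by
      intro B
      have hyB : y B ∉ (B : Set α) \ {x B} := fun h => (hy B).2 h.1
      rw [Set.insert_sdiff_self_of_notMem hyB, Set.insert_sdiff_singleton,
        Set.insert_eq_of_mem (hx B)]
    apply Subtype.ext
    rw [hrec B, hrec B', h1, h2, h3]
  have hcard1 := Finset.card_le_card_of_injOn g hgT hginj
  have hcardT : T.card ≤ Cf.card * (r * (M₁.E.ncard - r)) := by
    calc T.card ≤ ∑ B' ∈ Cf, (({B'} : Finset (Set α)) ×ˢ ((Ef.filter (fun a => a ∈ B'))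
            ×ˢ (Ef.filter (fun a => a ∉ B')))).card := Finset.card_biUnion_le
      _ = ∑ _B' ∈ Cf, r * (M₁.E.ncard - r) := by
          refine Finset.sum_congr rfl (fun B' hB' => ?_)
          simp only [Cf, Set.Finite.mem_toFinset, Set.mem_ofPred_eq] at hB'
          have hB'E : B' ⊆ M₁.E := hB'.1.subset_ground
          rw [Finset.card_product, Finset.card_product, Finset.card_singleton, one_mul]
          have e1 : ((Ef.filter (fun a => a ∈ B') : Finset α) : Set α) = B' := by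
            ext a
            simp only [Ef, Finset.coe_filter, Set.Finite.mem_toFinset, Set.mem_ofPred_eq]
            exact ⟨fun h => h.2, fun h => ⟨hB'E h, h⟩⟩
          have e2 : ((Ef.filter (fun a => a ∉ B') : Finset α) : Set α) = M₁.E \ B' := by
            ext a
            simp only [Ef, Finset.coe_filter, Set.Finite.mem_toFinset, Set.mem_ofPred_eq,
              Set.mem_sdiff]
          have c1 : (Ef.filter (fun a => a ∈ B')).card = r := by
            rw [← Set.ncard_coe_finset, e1, hr₁ B' hB'.1]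
          have c2 : (Ef.filter (fun a => a ∉ B')).card = M₁.E.ncard - r := by
            rw [← Set.ncard_coe_finset, e2, Set.ncard_sdiff hB'E (hfin.subset hB'E), hr₁ B' hB'.1]
          rw [c1, c2]
      _ = Cf.card * (r * (M₁.E.ncard - r)) := by
          rw [Finset.sum_const, smul_eq_mul]
  have hDcard : {B | M₁.IsBase B ∧ ¬ M₂.IsBase B}.ncard
      = (Finset.univ : Finset ↥{B | M₁.IsBase B ∧ ¬ M₂.IsBase B}).card := by
    rw [Finset.card_univ, ← Nat.card_eq_fintype_card, _root_.Nat.card_coe_set_eq]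
  have hCcard : {B | M₁.IsBase B ∧ M₂.IsBase B}.ncard = Cf.card := by
    rw [Set.ncard_eq_toFinset_card _ hCfin]
  rw [hDcard, hCcard]
  exact le_trans hcard1 hcardT

/-- Paving case with a common base. -/
theorem paving_bound_of_common (M₁ M₂ : Matroid α) (r : ℕ) (hE : M₁.E = M₂.E)
    (hfin : M₁.E.Finite)
    (hr₁ : ∀ B, M₁.IsBase B → B.ncard = r) (hr₂ : ∀ B, M₂.IsBase B → B.ncard = r)
    (hpav : ∀ I, I ⊆ M₂.E → I.ncard < r → M₂.Indep I)
    (hne : ∃ B, M₁.IsBase B ∧ M₂.IsBase B) :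
    {B | M₁.IsBase B}.ncard
      ≤ (1 + r * (M₁.E.ncard - r)) * {B | M₁.IsBase B ∧ M₂.IsBase B}.ncard := by
  obtain ⟨B₀, hB₀1, hB₀2⟩ := hne
  refine paving_bound M₁ M₂ r hE hfin hr₁ hr₂ hpav ⟨B₀, hB₀2, fun e he => ?_⟩
  exact hB₀1.indep.subset (Set.singleton_subset_iff.mpr he)

/-- A loopless matroid and a paving matroid of the same rank on the same finite ground set
have a common base. -/
theorem exists_common_of_loopless (M₁ M₂ : Matroid α) (r : ℕ) (hE : M₁.E = M₂.E)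
    (hfin : M₁.E.Finite)
    (hr₁ : ∀ B, M₁.IsBase B → B.ncard = r) (hr₂ : ∀ B, M₂.IsBase B → B.ncard = r)
    (hpav : ∀ I, I ⊆ M₂.E → I.ncard < r → M₂.Indep I)
    (hloop : ∀ e ∈ M₁.E, M₁.Indep {e}) :
    ∃ B, M₁.IsBase B ∧ M₂.IsBase B := by
  obtain ⟨B₂, hB₂⟩ := M₂.exists_isBase
  have hgood : ∃ B₂, M₂.IsBase B₂ ∧ ∀ e ∈ B₂, M₁.Indep {e} :=
    ⟨B₂, hB₂, fun e he => hloop e (hE ▸ hB₂.subset_ground he)⟩
  obtain ⟨B, hB⟩ := M₁.exists_isBase
  by_cases hB2 : M₂.IsBase B
  · exact ⟨B, hB, hB2⟩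
  · obtain ⟨x, _, y, _, h1, h2⟩ := exchange_step M₁ M₂ r hE hfin hr₁ hr₂ hpav hgood hB hB2
    exact ⟨_, h1, h2⟩

/-- The bases of the dual of a matroid whose bases have `r` elements have `n - r` elements. -/
theorem dual_base_ncard (M : Matroid α) (hfin : M.E.Finite) (r : ℕ)
    (hr : ∀ B, M.IsBase B → B.ncard = r) (B : Set α) (hB : M✶.IsBase B) :
    B.ncard = M.E.ncard - r := by
  have hBE : B ⊆ M.E := hB.subset_ground
  have h1 : (M.E \ B).ncard = r := hr _ hB.compl_isBase_of_dual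
  have h2 : (M.E \ B).ncard = M.E.ncard - B.ncard := Set.ncard_sdiff hBE (hfin.subset hBE)
  have h3 : B.ncard ≤ M.E.ncard := Set.ncard_le_ncard hBE hfin
  omega

/-- Complementation is injective on subsets of the ground set. -/
theorem compl_injOn (E : Set α) : Set.InjOn (fun X : Set α => E \ X) {X | X ⊆ E} := by
  intro X hX Y hY hXY
  have hX' : E \ (E \ X) = X := Set.sdiff_sdiff_cancel_left hX
  have hY' : E \ (E \ Y) = Y := Set.sdiff_sdiff_cancel_left hY
  have h : E \ (E \ X) = E \ (E \ Y) := congrArg (fun Z => E \ Z) hXY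
  rw [hX', hY'] at h
  exact h

/-- Duality preserves the number of bases. -/
theorem ncard_dual_bases (M : Matroid α) :
    {B | M✶.IsBase B}.ncard = {B | M.IsBase B}.ncard := by
  rw [Matroid.setOfPred_dual_isBase_eq]
  exact Set.InjOn.ncard_image
    ((compl_injOn M.E).mono (fun B hB => Matroid.IsBase.subset_ground hB))

/-- Duality preserves the number of common bases. -/
theorem ncard_dual_common (M₁ M₂ : Matroid α) (hE : M₁.E = M₂.E) :
    {B | M₁✶.IsBase B ∧ M₂✶.IsBase B}.ncard = {B | M₁.IsBase B ∧ M₂.IsBase B}.ncard := by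
  have h : {B | M₁✶.IsBase B ∧ M₂✶.IsBase B}
      = (fun X => M₁.E \ X) '' {B | M₁.IsBase B ∧ M₂.IsBase B} := by
    ext B
    constructor
    · rintro ⟨h1, h2⟩
      have hBE : B ⊆ M₁.E := h1.subset_ground
      refine ⟨M₁.E \ B, ⟨h1.compl_isBase_of_dual, ?_⟩, Set.sdiff_sdiff_cancel_left hBE⟩
      have := h2.compl_isBase_of_dual
      rwa [← hE] at this
    · rintro ⟨B', ⟨h1, h2⟩, rfl⟩
      refine ⟨h1.compl_isBase_dual, ?_⟩
      have := h2.compl_isBase_dual
      rwa [← hE] at this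
  rw [h]
  exact Set.InjOn.ncard_image
    ((compl_injOn M₁.E).mono (fun B hB => Matroid.IsBase.subset_ground hB.1))

/-- Dual-paving case with a common base. -/
theorem copaving_bound_of_common (M₁ M₂ : Matroid α) (r : ℕ) (hE : M₁.E = M₂.E)
    (hfin : M₁.E.Finite)
    (hr₁ : ∀ B, M₁.IsBase B → B.ncard = r) (hr₂ : ∀ B, M₂.IsBase B → B.ncard = r)
    (hpav : ∀ I, I ⊆ M₂.E → I.ncard < M₂.E.ncard - r → M₂✶.Indep I)
    (hne : ∃ B, M₁.IsBase B ∧ M₂.IsBase B) :
    {B | M₁.IsBase B}.ncard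
      ≤ (1 + r * (M₁.E.ncard - r)) * {B | M₁.IsBase B ∧ M₂.IsBase B}.ncard := by
  have hfin2 : M₂.E.Finite := hE ▸ hfin
  obtain ⟨B₀, hB₀1, hB₀2⟩ := hne
  have hrn : r ≤ M₁.E.ncard := by
    rw [← hr₁ B₀ hB₀1]
    exact Set.ncard_le_ncard hB₀1.subset_ground hfin
  have hne' : ∃ B, M₁✶.IsBase B ∧ M₂✶.IsBase B := by
    refine ⟨M₁.E \ B₀, hB₀1.compl_isBase_dual, ?_⟩
    have := hB₀2.compl_isBase_dual
    rwa [← hE] at this
  have key := paving_bound_of_common M₁✶ M₂✶ (M₁.E.ncard - r) hE hfin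
    (dual_base_ncard M₁ hfin r hr₁)
    (fun B hB => by rw [hE]; exact dual_base_ncard M₂ hfin2 r hr₂ B hB)
    (fun I hI hc => hpav I hI (by rw [← hE]; exact hc)) hne'
  rw [ncard_dual_bases, ncard_dual_common M₁ M₂ hE] at key
  have e : M₁✶.E.ncard - (M₁.E.ncard - r) = r := by
    rw [Matroid.dual_ground]
    omega
  rw [e] at key
  rw [Nat.mul_comm r (M₁.E.ncard - r)]
  exact key

end Vale.Agent.Lib.P317
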