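import Vale.Agent.Lib.P317.Exchange

/-!
Common bases of an arbitrary matroid and a paving or dual-paving matroid of the same rank:
the sharper counting bounds `1 + (n - r)` (paving) and `1 + r` (dual-paving).
-/

namespace Vale.Agent.Lib.P317

open Set

variable {α : Type*}

/-- In a paving matroid, for a base `B'` and an element `x` outside `B'`, at most one exchange
`B' - y + x` with `y` in `B'` fails to be a base. -/
theorem paving_unique_out (M₂ : Matroid α) (hfin2 : M₂.E.Finite) (r : ℕ)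
    (hr₂ : ∀ B, M₂.IsBase B → B.ncard = r)
    (hpav : ∀ I, I ⊆ M₂.E → I.ncard < r → M₂.Indep I)
    {B' : Set α} (hB' : M₂.IsBase B') {x y₁ y₂ : α} (hxE : x ∈ M₂.E) (hxB : x ∉ B')
    (hy₁ : y₁ ∈ B') (hy₂ : y₂ ∈ B')
    (h₁ : ¬ M₂.IsBase (insert x (B' \ {y₁}))) (h₂ : ¬ M₂.IsBase (insert x (B' \ {y₂}))) :
    y₁ = y₂ := by
  by_contra hne
  have hB'E : B' ⊆ M₂.E := hB'.subset_ground
  have hB'fin : B'.Finite := hfin2.subset hB'E
  have hB'r : B'.ncard = r := hr₂ B' hB'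
  have hc1 : (B' \ {y₁}).ncard + 1 = r := by
    rw [Set.ncard_sdiff_singleton_add_one hy₁ hB'fin, hB'r]
  have hy₂' : y₂ ∈ B' \ {y₁} := ⟨hy₂, fun h => hne h.symm⟩
  have hc2 : ((B' \ {y₁}) \ {y₂}).ncard + 1 = (B' \ {y₁}).ncard :=
    Set.ncard_sdiff_singleton_add_one hy₂' (hB'fin.subset Set.sdiff_subset)
  have hDE : insert x ((B' \ {y₁}) \ {y₂}) ⊆ M₂.E :=
    Set.insert_subset hxE (fun z hz => hB'E hz.1.1)
  have hDc : (insert x ((B' \ {y₁}) \ {y₂})).ncard < r := by
    have := Set.ncard_insert_le x ((B' \ {y₁}) \ {y₂})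
    omega
  have hDind : M₂.Indep (insert x ((B' \ {y₁}) \ {y₂})) := hpav _ hDE hDc
  have hDnb : ¬ M₂.IsBase (insert x ((B' \ {y₁}) \ {y₂})) := fun h => by
    have := hr₂ _ h
    omega
  obtain ⟨e, he, heI⟩ := hDind.exists_insert_of_not_isBase hDnb hB'
  have hexy : e = y₁ ∨ e = y₂ := by
    by_contra hcon
    rw [not_or] at hcon
    exact he.2 (Set.mem_insert_of_mem x ⟨⟨he.1, hcon.1⟩, hcon.2⟩)
  have hcard : ∀ y ∈ B', (insert x (B' \ {y})).ncard = r := by
    intro y hy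
    have hx2 : x ∉ B' \ {y} := fun h => hxB h.1
    rw [Set.ncard_insert_of_notMem hx2 (hB'fin.subset Set.sdiff_subset),
      Set.ncard_sdiff_singleton_add_one hy hB'fin, hB'r]
  rcases hexy with h | h
  · have hset : insert e (insert x ((B' \ {y₁}) \ {y₂})) = insert x (B' \ {y₂}) := by
      ext z
      simp only [Set.mem_insert_iff, Set.mem_sdiff, Set.mem_singleton_iff]
      constructor
      · rintro (hz | hz | ⟨⟨hz, -⟩, hz2⟩)
        · exact Or.inr ⟨by rw [hz, h]; exact hy₁, by rw [hz, h]; exact hne⟩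
        · exact Or.inl hz
        · exact Or.inr ⟨hz, hz2⟩
      · rintro (hz | ⟨hz, hz2⟩)
        · exact Or.inr (Or.inl hz)
        · by_cases hz1 : z = y₁
          · exact Or.inl (by rw [hz1, h])
          · exact Or.inr (Or.inr ⟨⟨hz, hz1⟩, hz2⟩)
    rw [hset] at heI
    exact h₂ (isBase_of_indep_of_ncard M₂ hfin2 r hr₂ heI (hcard y₂ hy₂))
  · have hset : insert e (insert x ((B' \ {y₁}) \ {y₂})) = insert x (B' \ {y₁}) := by
      ext z
      simp only [Set.mem_insert_iff, Set.mem_sdiff, Set.mem_singleton_iff]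
      constructor
      · rintro (hz | hz | ⟨⟨hz, hz1⟩, -⟩)
        · exact Or.inr ⟨by rw [hz, h]; exact hy₂, by rw [hz, h]; exact fun h' => hne h'.symm⟩
        · exact Or.inl hz
        · exact Or.inr ⟨hz, hz1⟩
      · rintro (hz | ⟨hz, hz1⟩)
        · exact Or.inr (Or.inl hz)
        · by_cases hz2 : z = y₂
          · exact Or.inl (by rw [hz2, h])
          · exact Or.inr (Or.inr ⟨⟨hz, hz1⟩, hz2⟩)
    rw [hset] at heI
    exact h₁ (isBase_of_indep_of_ncard M₂ hfin2 r hr₂ heI (hcard y₁ hy₁))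

/-- If `M₂` is paving and some base of `M₂` consists of nonloops of `M₁`, both matroids of rank
`r` on the same finite ground set with `n` elements, then the bases of `M₁` are at most
`1 + (n - r)` times as many as the common bases. -/
theorem paving_bound_sharp (M₁ M₂ : Matroid α) (r : ℕ) (hE : M₁.E = M₂.E) (hfin : M₁.E.Finite)
    (hr₁ : ∀ B, M₁.IsBase B → B.ncard = r) (hr₂ : ∀ B, M₂.IsBase B → B.ncard = r)
    (hpav : ∀ I, I ⊆ M₂.E → I.ncard < r → M₂.Indep I)
    (hgood : ∃ B₂, M₂.IsBase B₂ ∧ ∀ e ∈ B₂, M₁.Indep {e}) :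
    {B | M₁.IsBase B}.ncard
      ≤ (1 + (M₁.E.ncard - r)) * {B | M₁.IsBase B ∧ M₂.IsBase B}.ncard := by
  classical
  have hfin2 : M₂.E.Finite := hE ▸ hfin
  have hPfin : {B : Set α | B ⊆ M₁.E}.Finite := hfin.finite_subsets
  have hDfin : {B | M₁.IsBase B ∧ ¬ M₂.IsBase B}.Finite :=
    hPfin.subset (fun B hB => hB.1.subset_ground)
  have hCfin : {B | M₁.IsBase B ∧ M₂.IsBase B}.Finite :=
    hPfin.subset (fun B hB => hB.1.subset_ground)
  have hsplit : {B | M₁.IsBase B}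
      = {B | M₁.IsBase B ∧ M₂.IsBase B} ∪ {B | M₁.IsBase B ∧ ¬ M₂.IsBase B} := by
    ext B
    simp only [Set.mem_ofPred_eq, Set.mem_union]
    tauto
  have hdisj : Disjoint {B | M₁.IsBase B ∧ M₂.IsBase B} {B | M₁.IsBase B ∧ ¬ M₂.IsBase B} := by
    rw [Set.disjoint_left]
    intro B hB hB'
    exact hB'.2 hB.2
  have h1 : {B | M₁.IsBase B}.ncard = {B | M₁.IsBase B ∧ M₂.IsBase B}.ncard
      + {B | M₁.IsBase B ∧ ¬ M₂.IsBase B}.ncard := by
    rw [hsplit, Set.ncard_union_eq hdisj hCfin hDfin]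
  suffices h2 : {B | M₁.IsBase B ∧ ¬ M₂.IsBase B}.ncard
      ≤ {B | M₁.IsBase B ∧ M₂.IsBase B}.ncard * (M₁.E.ncard - r) by
    rw [h1]
    calc {B | M₁.IsBase B ∧ M₂.IsBase B}.ncard + {B | M₁.IsBase B ∧ ¬ M₂.IsBase B}.ncard
        ≤ {B | M₁.IsBase B ∧ M₂.IsBase B}.ncard
          + {B | M₁.IsBase B ∧ M₂.IsBase B}.ncard * (M₁.E.ncard - r) :=
          Nat.add_le_add_left h2 _
      _ = (1 + (M₁.E.ncard - r)) * {B | M₁.IsBase B ∧ M₂.IsBase B}.ncard := by ring
  -- the exchange map, remembering only the element that leaves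
  have : Fintype ↥{B | M₁.IsBase B ∧ ¬ M₂.IsBase B} := hDfin.fintype
  choose x hx y hy hxy using fun (B : ↥{B | M₁.IsBase B ∧ ¬ M₂.IsBase B}) =>
    exchange_step M₁ M₂ r hE hfin hr₁ hr₂ hpav hgood B.2.1 B.2.2
  let Ef : Finset α := hfin.toFinset
  let Cf : Finset (Set α) := hCfin.toFinset
  let T : Finset (Set α × α) := Cf.biUnion (fun B' =>
    ({B'} : Finset (Set α)) ×ˢ (Ef.filter (fun a => a ∉ B')))
  let g : ↥{B | M₁.IsBase B ∧ ¬ M₂.IsBase B} → Set α × α :=
    fun B => (insert (y B) ((B : Set α) \ {x B}), x B)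
  have hxnot : ∀ B : ↥{B | M₁.IsBase B ∧ ¬ M₂.IsBase B},
      x B ∉ insert (y B) ((B : Set α) \ {x B}) := by
    intro B h
    rcases h with h | h
    · exact (hy B).2 (h ▸ hx B)
    · exact h.2 rfl
  have hgT : ∀ B ∈ (Finset.univ : Finset ↥{B | M₁.IsBase B ∧ ¬ M₂.IsBase B}), g B ∈ T := by
    intro B _
    have hBE : (B : Set α) ⊆ M₁.E := B.2.1.subset_ground
    simp only [T, g, Finset.mem_biUnion, Finset.mem_product, Finset.mem_singleton,
      Finset.mem_filter]
    refine ⟨insert (y B) ((B : Set α) \ {x B}), ?_, rfl, ?_, hxnot B⟩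
    · simp only [Cf, Set.Finite.mem_toFinset, Set.mem_ofPred_eq]
      exact hxy B
    · simp only [Ef, Set.Finite.mem_toFinset]
      exact hBE (hx B)
  have hrec : ∀ B : ↥{B | M₁.IsBase B ∧ ¬ M₂.IsBase B},
      (B : Set α) = insert (x B) ((insert (y B) ((B : Set α) \ {x B})) \ {y B}) := by
    intro B
    have hyB : y B ∉ (B : Set α) \ {x B} := fun h => (hy B).2 h.1
    rw [Set.insert_sdiff_self_of_notMem hyB, Set.insert_sdiff_singleton,
      Set.insert_eq_of_mem (hx B)]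
  have hginj : Set.InjOn g (Finset.univ : Finset ↥{B | M₁.IsBase B ∧ ¬ M₂.IsBase B}) := by
    intro B _ B' _ hBB'
    simp only [g, Prod.mk.injEq] at hBB'
    obtain ⟨h1, h3⟩ := hBB'
    have hyy : y B = y B' := by
      refine paving_unique_out M₂ hfin2 r hr₂ hpav (hxy B).2 (x := x B)
        (hE ▸ B.2.1.subset_ground (hx B)) (hxnot B) (Set.mem_insert _ _) ?_ ?_ ?_
      · rw [h1]
        exact Set.mem_insert _ _
      · rw [← hrec B]
        exact B.2.2
      · rw [h1, h3, ← hrec B']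
        exact B'.2.2
    apply Subtype.ext
    rw [hrec B, hrec B', h1, hyy, h3]
  have hcard1 := Finset.card_le_card_of_injOn g hgT hginj
  have hcardT : T.card ≤ Cf.card * (M₁.E.ncard - r) := by
    calc T.card ≤ ∑ B' ∈ Cf, (({B'} : Finset (Set α))
            ×ˢ (Ef.filter (fun a => a ∉ B'))).card := Finset.card_biUnion_le
      _ = ∑ _B' ∈ Cf, (M₁.E.ncard - r) := by
          refine Finset.sum_congr rfl (fun B' hB' => ?_)
          simp only [Cf, Set.Finite.mem_toFinset, Set.mem_ofPred_eq] at hB'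
          have hB'E : B' ⊆ M₁.E := hB'.1.subset_ground
          rw [Finset.card_product, Finset.card_singleton, one_mul]
          have e2 : ((Ef.filter (fun a => a ∉ B') : Finset α) : Set α) = M₁.E \ B' := by
            ext a
            simp only [Ef, Finset.coe_filter, Set.Finite.mem_toFinset, Set.mem_ofPred_eq,
              Set.mem_sdiff]
          rw [← Set.ncard_coe_finset, e2, Set.ncard_sdiff hB'E (hfin.subset hB'E), hr₁ B' hB'.1]
      _ = Cf.card * (M₁.E.ncard - r) := by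
          rw [Finset.sum_const, smul_eq_mul]
  have hDcard : {B | M₁.IsBase B ∧ ¬ M₂.IsBase B}.ncard
      = (Finset.univ : Finset ↥{B | M₁.IsBase B ∧ ¬ M₂.IsBase B}).card := by
    rw [Finset.card_univ, ← Nat.card_eq_fintype_card, _root_.Nat.card_coe_set_eq]
  have hCcard : {B | M₁.IsBase B ∧ M₂.IsBase B}.ncard = Cf.card := by
    rw [Set.ncard_eq_toFinset_card _ hCfin]
  rw [hDcard, hCcard]
  exact le_trans hcard1 hcardT

/-- Dual-paving case with a common base: the bases of `M₁` are at most `1 + r` times as many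
as the common bases. -/
theorem copaving_bound_sharp (M₁ M₂ : Matroid α) (r : ℕ) (hE : M₁.E = M₂.E)
    (hfin : M₁.E.Finite)
    (hr₁ : ∀ B, M₁.IsBase B → B.ncard = r) (hr₂ : ∀ B, M₂.IsBase B → B.ncard = r)
    (hpav : ∀ I, I ⊆ M₂.E → I.ncard < M₂.E.ncard - r → M₂✶.Indep I)
    (hne : ∃ B, M₁.IsBase B ∧ M₂.IsBase B) :
    {B | M₁.IsBase B}.ncard
      ≤ (1 + r) * {B | M₁.IsBase B ∧ M₂.IsBase B}.ncard := by
  have hfin2 : M₂.E.Finite := hE ▸ hfin
  obtain ⟨B₀, hB₀1, hB₀2⟩ := hne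
  have hrn : r ≤ M₁.E.ncard := by
    rw [← hr₁ B₀ hB₀1]
    exact Set.ncard_le_ncard hB₀1.subset_ground hfin
  have hgood : ∃ B₂, M₂✶.IsBase B₂ ∧ ∀ e ∈ B₂, M₁✶.Indep {e} := by
    refine ⟨M₁.E \ B₀, ?_, fun e he => ?_⟩
    · have := hB₀2.compl_isBase_dual
      rwa [← hE] at this
    · exact hB₀1.compl_isBase_dual.indep.subset (Set.singleton_subset_iff.mpr he)
  have key := paving_bound_sharp M₁✶ M₂✶ (M₁.E.ncard - r) hE hfin
    (dual_base_ncard M₁ hfin r hr₁)
    (fun B hB => by rw [hE]; exact dual_base_ncard M₂ hfin2 r hr₂ B hB)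
    (fun I hI hc => hpav I hI (by rw [← hE]; exact hc)) hgood
  rw [ncard_dual_bases, ncard_dual_common M₁ M₂ hE] at key
  have e : M₁✶.E.ncard - (M₁.E.ncard - r) = r := by
    rw [Matroid.dual_ground]
    omega
  rw [e] at key
  exact key

end Vale.Agent.Lib.P317
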